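import Vale.Agent.P363.F.Main

namespace Vale.Agent.Results.P363.A_full

open Vale.Agent.P363

theorem result : ∃ (N M : ℕ) (Z : Fin M → ℕ) (R : Fin M → E3), 0 < M ∧ (∀ j, 0 < Z j) ∧
    Function.Injective R ∧
    ∃ Ψ : H1 (N + 1), IsGround (coulomb Z R) Ψ ∧ ¬Representable N (density Ψ) :=
  fm_main

end Vale.Agent.Results.P363.A_full
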